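import Vale.Agent.P252.Separable

open scoped ContDiff

namespace Vale.Agent.Results.P252.SeparableEntire

open Vale.Agent.P252

/-- An entire separable solution `u(x) = ∑ f_i(x_i)` of the affine maximal equation with positive
definite Hessian is a quadratic polynomial, in every dimension. -/
theorem result (n : ℕ) (f : Fin n → ℝ → ℝ) (hf : ∀ i, ContDiff ℝ ∞ (f i))
    (hpos : ∀ i t, 0 < deriv (deriv (f i)) t)
    (ham : AffineMaximal (fun x : Eu n => ∑ i, f i (x i))) :
    ∀ i, ∃ a b c : ℝ, 0 < a ∧ ∀ t, f i t = a * t ^ 2 / 2 + b * t + c :=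
  separable_quadratic f hf hpos ham

end Vale.Agent.Results.P252.SeparableEntire
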