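import Vale.Agent.P252.Separated

open scoped ContDiff

namespace Vale.Agent.Results.P252.SeparatedEntire

open Vale.Agent.P252

/-- Every entire separated solution `u(x) = ∑ f_i(x_i)` of the affine maximal equation with positive
definite Hessian, in every dimension, is a quadratic polynomial (an elliptic paraboloid). -/
theorem result {n : ℕ} (f : Fin n → ℝ → ℝ) (hf : ∀ i, ContDiff ℝ ∞ (f i))
    (hconv : ∀ i t, 0 < deriv (deriv (f i)) t)
    (hAM : SolvesAffineMaximal (fun x => ∑ i, f i (x i))) :
    ∀ i, ∃ c b d : ℝ, 0 < c ∧ ∀ t, f i t = c / 2 * t ^ 2 + b * t + d :=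
  separated_quadratic f hf hconv hAM

end Vale.Agent.Results.P252.SeparatedEntire
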